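import Vale.Agent.P328.Defs

/-!
# P328, module CONN: the hub moves connect all tables
-/

namespace Vale.Agent.P328.CONN

open Finset
open Vale.Agent.P328

variable {κ : Type} [Fintype κ] [DecidableEq κ] {n : ℕ}

lemma mem_TT {r : κ → ℕ} {c : Fin n → ℕ} {x : κ → Fin n → ℕ} :
    x ∈ TT r c ↔ (∀ k, ∑ j, x k j = r k) ∧ ∀ j, ∑ k, x k j ≤ c j := by
  unfold TT
  rw [mem_filter]
  constructor
  · exact fun h => h.2
  · intro h
    refine ⟨?_, h⟩
    rw [Fintype.mem_piFinset]
    intro k
    rw [Fintype.mem_piFinset]
    intro j
    rw [mem_range]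
    have h1 := h.2 j
    have h2 : x k j ≤ ∑ k, x k j :=
      Finset.single_le_sum (f := fun k => x k j) (fun _ _ => Nat.zero_le _) (mem_univ k)
    omega

omit [Fintype κ] in
lemma sum_row (i k : κ) (l : Fin n) :
    ∑ m, (if i = k ∧ m = l then (1 : ℤ) else 0) = if i = k then 1 else 0 := by
  by_cases h : i = k
  · simp [h]
  · simp [h]

lemma sum_col (m l : Fin n) (k : κ) :
    ∑ i, (if i = k ∧ m = l then (1 : ℤ) else 0) = if m = l then 1 else 0 := by
  by_cases h : m = l
  · simp [h]
  · simp [h]

/-- one hub move: in row `k` a unit goes from column `j` to column `l` -/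
lemma step {r : κ → ℕ} {c : Fin n → ℕ} {F : (κ → Fin n → ℕ) → ℝ}
    (hF : ∀ k, ∀ v ∈ TT (up r k) c, ∀ j l, 1 ≤ v k j → 1 ≤ v k l →
      F (v - e2 k l) = F (v - e2 k j)) {x : κ → Fin n → ℕ} (hx : x ∈ TT r c) (k : κ)
    (j l : Fin n) (hj : 1 ≤ x k j) (hl : ∑ i, x i l < c l) :
    ∃ x' ∈ TT r c, F x' = F x ∧
      (∀ i m, (x' i m : ℤ) = x i m + (if i = k ∧ m = l then 1 else 0)
        - (if i = k ∧ m = j then 1 else 0)) ∧
      (∀ m, ((∑ i, x' i m : ℕ) : ℤ) = ((∑ i, x i m : ℕ) : ℤ) + (if m = l then 1 else 0)
        - (if m = j then 1 else 0)) := by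
  have hx' := mem_TT.1 hx
  set v : κ → Fin n → ℕ := x + e2 k l with hv
  have hve : ∀ i m, (v i m : ℤ) = x i m + (if i = k ∧ m = l then 1 else 0) := by
    intro i m
    simp only [hv, Pi.add_apply, e2]
    push_cast
    rfl
  have hvk : ∀ m, x k m ≤ v k m := by
    intro m
    simp only [hv, Pi.add_apply]
    omega
  have hvl : 1 ≤ v k l := by
    simp [hv, Pi.add_apply, e2]
  have hvj : 1 ≤ v k j := hj.trans (hvk j)
  have hvT : v ∈ TT (up r k) c := by
    rw [mem_TT]
    constructor
    · intro i
      have h1 : ((∑ m, v i m : ℕ) : ℤ) = ((up r k i : ℕ) : ℤ) := by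
        push_cast
        simp only [hve]
        rw [Finset.sum_add_distrib, sum_row]
        have h2 := hx'.1 i
        have h3 : ((∑ m, x i m : ℕ) : ℤ) = r i := by rw [h2]
        push_cast at h3
        rw [h3]
        unfold up
        split_ifs <;> simp
      exact_mod_cast h1
    · intro m
      have h1 : ((∑ i, v i m : ℕ) : ℤ) = ((∑ i, x i m : ℕ) : ℤ) + if m = l then 1 else 0 := by
        push_cast
        simp only [hve]
        rw [Finset.sum_add_distrib, sum_col]
      have h2 := hx'.2 m
      by_cases hm : m = l
      · subst hm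
        rw [if_pos rfl] at h1
        omega
      · rw [if_neg hm] at h1
        omega
  set x' : κ → Fin n → ℕ := v - e2 k j with hx'd
  have hent : ∀ i m, (x' i m : ℤ) = x i m + (if i = k ∧ m = l then 1 else 0)
        - (if i = k ∧ m = j then 1 else 0) := by
    intro i m
    rw [← hve]
    simp only [hx'd, Pi.sub_apply, e2]
    split_ifs with h
    · obtain ⟨rfl, rfl⟩ := h
      push_cast [Nat.cast_sub hvj]
      rfl
    · simp
  have hcol : ∀ m, ((∑ i, x' i m : ℕ) : ℤ) = ((∑ i, x i m : ℕ) : ℤ) + (if m = l then 1 else 0)
        - (if m = j then 1 else 0) := by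
    intro m
    push_cast
    simp only [hent]
    rw [Finset.sum_sub_distrib, Finset.sum_add_distrib, sum_col, sum_col]
  refine ⟨x', ?_, ?_, hent, hcol⟩
  · rw [mem_TT]
    constructor
    · intro i
      have h1 : ((∑ m, x' i m : ℕ) : ℤ) = ((r i : ℕ) : ℤ) := by
        push_cast
        simp only [hent]
        rw [Finset.sum_sub_distrib, Finset.sum_add_distrib, sum_row, sum_row]
        have h3 : ((∑ m, x i m : ℕ) : ℤ) = r i := by rw [hx'.1 i]
        push_cast at h3
        rw [h3]
        ring
      exact_mod_cast h1
    · intro m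
      have h1 := hcol m
      have h2 := hx'.2 m
      by_cases hm : m = l
      · subst hm
        rw [if_pos rfl] at h1
        split_ifs at h1 <;> omega
      · rw [if_neg hm] at h1
        split_ifs at h1 <;> omega
  · rw [← hF k v hvT j l hvj hvl]
    congr 1
    funext i m
    simp only [hv, Pi.add_apply, Pi.sub_apply]
    omega

lemma sum_delta (i : κ) (j : Fin n) :
    ∑ a, ∑ m, (if a = i ∧ m = j then (1 : ℕ) else 0) = 1 := by
  rw [Finset.sum_eq_single i]
  · simp
  · intro a _ ha
    simp [ha]
  · intro h
    exact absurd (mem_univ i) h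

theorem thm : StmtCONN := by
  intro κ _ _ n r c F hlt hF
  have key : ∀ N : ℕ, ∀ x ∈ TT r c, ∀ y ∈ TT r c,
      ∑ i, ∑ m, ((x i m : ℤ) - y i m).natAbs = N → F x = F y := by
    intro N
    induction N using Nat.strong_induction_on with
    | _ N ih =>
    intro x hx y hy hN
    have hx' := mem_TT.1 hx
    have hy' := mem_TT.1 hy
    by_cases hxy : x = y
    · rw [hxy]
    obtain ⟨k, hk⟩ : ∃ k, x k ≠ y k := by
      by_contra h
      push Not at h
      exact hxy (funext h)
    have hrow : ∑ m, x k m = ∑ m, y k m := by rw [hx'.1 k, hy'.1 k]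
    obtain ⟨j, hj⟩ : ∃ j, y k j < x k j := by
      by_contra h
      push Not at h
      apply hk
      have := (Finset.sum_eq_sum_iff_of_le (fun m _ => h m)).1 hrow
      funext m
      exact this m (mem_univ m)
    obtain ⟨l, hl⟩ : ∃ l, x k l < y k l := by
      by_contra h
      push Not at h
      apply hk
      have := (Finset.sum_eq_sum_iff_of_le (fun m _ => h m)).1 hrow.symm
      funext m
      exact (this m (mem_univ m)).symm
    have hjl : j ≠ l := by
      rintro rfl
      omega
    by_cases hhub : ∑ i, x i l < c l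
    · obtain ⟨x1, hx1, hF1, he1, _⟩ := step hF hx k j l (by omega) hhub
      rw [← hF1]
      have pt : ∀ a m, ((x1 a m : ℤ) - y a m).natAbs + (if a = k ∧ m = j then 1 else 0)
          + (if a = k ∧ m = l then 1 else 0) ≤ ((x a m : ℤ) - y a m).natAbs := by
        intro a m
        have e := he1 a m
        by_cases h1 : a = k
        · subst h1
          by_cases h2 : m = j
          · subst h2
            simp [hjl] at e ⊢
            omega
          · by_cases h3 : m = l
            · subst h3
              simp [h2] at e ⊢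
              omega
            · simp [h2, h3] at e ⊢
              omega
        · simp [h1] at e ⊢
          omega
      have hsum : ∑ a, ∑ m, ((x1 a m : ℤ) - y a m).natAbs + 1 + 1
          ≤ ∑ a, ∑ m, ((x a m : ℤ) - y a m).natAbs := by
        calc ∑ a, ∑ m, ((x1 a m : ℤ) - y a m).natAbs + 1 + 1
            = ∑ a, ∑ m, ((x1 a m : ℤ) - y a m).natAbs
              + ∑ a, ∑ m, (if a = k ∧ m = j then 1 else 0)
              + ∑ a, ∑ m, (if a = k ∧ m = l then 1 else 0) := by
              rw [sum_delta, sum_delta]
          _ = ∑ a, ∑ m, (((x1 a m : ℤ) - y a m).natAbs + (if a = k ∧ m = j then 1 else 0)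
              + (if a = k ∧ m = l then 1 else 0)) := by
              simp only [Finset.sum_add_distrib]
          _ ≤ _ := Finset.sum_le_sum fun a _ => Finset.sum_le_sum fun m _ => pt a m
      exact ih _ (by omega) x1 hx1 y hy rfl
    · have hfull : ∑ i, x i l = c l := le_antisymm (hx'.2 l) (not_lt.1 hhub)
      obtain ⟨i, hi⟩ : ∃ i, y i l < x i l := by
        by_contra h
        push Not at h
        have h1 : ∑ i, x i l < ∑ i, y i l :=
          Finset.sum_lt_sum (fun i _ => h i) ⟨k, mem_univ k, hl⟩
        have := hy'.2 l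
        omega
      have hik : i ≠ k := by
        rintro rfl
        omega
      obtain ⟨a, ha⟩ : ∃ a, ∑ i, x i a < c a := by
        by_contra h
        push Not at h
        have h1 : ∑ a, c a ≤ ∑ a, ∑ i, x i a := Finset.sum_le_sum fun a _ => h a
        rw [Finset.sum_comm] at h1
        have h2 : ∑ i, ∑ a, x i a = ∑ i, r i := Finset.sum_congr rfl fun i _ => hx'.1 i
        omega
      have hal : a ≠ l := by
        rintro rfl
        omega
      obtain ⟨x1, hx1, hF1, he1, hc1⟩ := step hF hx i l a (by omega) ha
      have h1kj : x1 k j = x k j := by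
        have := he1 k j
        simp [Ne.symm hik] at this
        exact_mod_cast this
      have h1l : ∑ i, x1 i l < c l := by
        have := hc1 l
        rw [if_neg (Ne.symm hal), if_pos rfl] at this
        omega
      obtain ⟨x2, hx2, hF2, he2, hc2⟩ := step hF hx1 k j l (by omega) h1l
      have h2ia : 1 ≤ x2 i a := by
        have h3 := he1 i a
        have h4 := he2 i a
        simp [hik, hal] at h3 h4
        omega
      have h2j : ∑ i, x2 i j < c j := by
        have h3 := hc1 j
        have h4 := hc2 j
        rw [if_neg hjl] at h3 h4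
        rw [if_pos rfl] at h4
        by_cases hja : j = a
        · subst hja
          rw [if_pos rfl] at h3
          omega
        · rw [if_neg hja] at h3
          have := hx'.2 j
          have h5 : 1 ≤ x k j := by omega
          have h6 : x k j ≤ ∑ i, x i j :=
            Finset.single_le_sum (f := fun k => x k j) (fun _ _ => Nat.zero_le _) (mem_univ k)
          omega
      obtain ⟨x3, hx3, hF3, he3, _⟩ := step hF hx2 i a j h2ia h2j
      rw [← hF1, ← hF2, ← hF3]
      have pt : ∀ b m, ((x3 b m : ℤ) - y b m).natAbs + (if b = k ∧ m = j then 1 else 0)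
          + (if b = k ∧ m = l then 1 else 0) + (if b = i ∧ m = l then 1 else 0)
          ≤ ((x b m : ℤ) - y b m).natAbs + (if b = i ∧ m = j then 1 else 0) := by
        intro b m
        have e1 := he1 b m
        have e2 := he2 b m
        have e3 := he3 b m
        by_cases h1 : b = k
        · subst h1
          by_cases h2 : m = j
          · subst h2
            simp [hjl, Ne.symm hik] at e1 e2 e3 ⊢
            omega
          · by_cases h3 : m = l
            · subst h3
              simp [h2, Ne.symm hik] at e1 e2 e3 ⊢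
              omega
            · simp [h2, h3, Ne.symm hik] at e1 e2 e3 ⊢
              omega
        · by_cases h1' : b = i
          · subst h1'
            by_cases h2 : m = j
            · subst h2
              simp [hjl, hik] at e1 e2 e3 ⊢
              split_ifs at e1 e3 <;> omega
            · by_cases h3 : m = l
              · subst h3
                simp [h2, hik, Ne.symm hal] at e1 e2 e3 ⊢
                omega
              · simp [h2, h3, hik] at e1 e2 e3 ⊢
                split_ifs at e1 e3 <;> omega
          · simp [h1, h1'] at e1 e2 e3 ⊢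
            omega
      have hsum : ∑ b, ∑ m, ((x3 b m : ℤ) - y b m).natAbs + 1 + 1 + 1
          ≤ ∑ b, ∑ m, ((x b m : ℤ) - y b m).natAbs + 1 := by
        calc ∑ b, ∑ m, ((x3 b m : ℤ) - y b m).natAbs + 1 + 1 + 1
            = ∑ b, ∑ m, ((x3 b m : ℤ) - y b m).natAbs
              + ∑ b, ∑ m, (if b = k ∧ m = j then 1 else 0)
              + ∑ b, ∑ m, (if b = k ∧ m = l then 1 else 0)
              + ∑ b, ∑ m, (if b = i ∧ m = l then 1 else 0) := by
              rw [sum_delta, sum_delta, sum_delta]
          _ = ∑ b, ∑ m, (((x3 b m : ℤ) - y b m).natAbs + (if b = k ∧ m = j then 1 else 0)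
              + (if b = k ∧ m = l then 1 else 0) + (if b = i ∧ m = l then 1 else 0)) := by
              simp only [Finset.sum_add_distrib]
          _ ≤ ∑ b, ∑ m, (((x b m : ℤ) - y b m).natAbs + (if b = i ∧ m = j then 1 else 0)) :=
              Finset.sum_le_sum fun b _ => Finset.sum_le_sum fun m _ => pt b m
          _ = ∑ b, ∑ m, ((x b m : ℤ) - y b m).natAbs + 1 := by
              simp only [Finset.sum_add_distrib]
              rw [sum_delta]
      exact ih _ (by omega) x3 hx3 y hy rfl
  intro x hx y hy
  exact key _ x hx y hy rfl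

end Vale.Agent.P328.CONN
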