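import Vale.Agent.P328.Defs

/-!
# P328, module CRO: cross terms are sums of squares
-/

namespace Vale.Agent.P328.CRO

open Finset

lemma sym4 {n : ℕ} (g : Fin n → Fin n → Fin n → Fin n → ℝ)
    (h : ∀ j x l y, 0 ≤ g j x l y + g x j l y + g j x y l + g x j y l) :
    0 ≤ ∑ j, ∑ x, ∑ l, ∑ y, g j x l y := by
  have h1 : ∑ j, ∑ x, ∑ l, ∑ y, g j x l y = ∑ j, ∑ x, ∑ l, ∑ y, g x j l y :=
    Finset.sum_comm
  have h2 : ∑ j, ∑ x, ∑ l, ∑ y, g j x l y = ∑ j, ∑ x, ∑ l, ∑ y, g j x y l := by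
    refine Finset.sum_congr rfl fun j _ => Finset.sum_congr rfl fun x _ => ?_
    exact Finset.sum_comm
  have h3 : ∑ j, ∑ x, ∑ l, ∑ y, g x j l y = ∑ j, ∑ x, ∑ l, ∑ y, g x j y l := by
    refine Finset.sum_congr rfl fun j _ => Finset.sum_congr rfl fun x _ => ?_
    exact Finset.sum_comm
  have h4 : 0 ≤ ∑ j, ∑ x, ∑ l, ∑ y, (g j x l y + g x j l y + g j x y l + g x j y l) :=
    Finset.sum_nonneg fun j _ => Finset.sum_nonneg fun x _ => Finset.sum_nonneg fun l _ =>
      Finset.sum_nonneg fun y _ => h j x l y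
  simp only [Finset.sum_add_distrib] at h4
  linarith

lemma core {n : ℕ} (a b : Fin n → ℝ) (ha : ∀ j, 0 ≤ a j) (hb : ∀ j, 0 ≤ b j)
    (P : Fin n → Fin n → ℝ) :
    0 ≤ ∑ j, ∑ x, ∑ l, ∑ y, (a x * a j * (P x l - P j l)) * (b y * b l * (P j y - P j l)) := by
  apply sym4
  intro j x l y
  have h0 : 0 ≤ a j * a x * (b l * b y) * (P j l - P x l - P j y + P x y) ^ 2 :=
    mul_nonneg (mul_nonneg (mul_nonneg (ha j) (ha x)) (mul_nonneg (hb l) (hb y))) (sq_nonneg _)
  calc (0 : ℝ) ≤ _ := h0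
    _ = _ := by ring

theorem thm : StmtCRO := by
  intro κ _ _ n F k k' w hkk
  have hU1 : ∀ j l, UU F k j (w - e2 k' l) =
      ∑ x, (w k x : ℝ) * (w k j : ℝ) * (F (w - e2 k x - e2 k' l) - F (w - e2 k j - e2 k' l)) := by
    intro j l
    unfold UU
    refine Finset.sum_congr rfl fun x _ => ?_
    have e1 : ∀ a, (w - e2 k' l) k a = w k a := by
      intro a
      simp [e2, hkk]
    rw [e1, e1, tsub_right_comm, tsub_right_comm (b := e2 k' l) (c := e2 k j)]
  have hU2 : ∀ j l, UU F k' l (w - e2 k j) =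
      ∑ y, (w k' y : ℝ) * (w k' l : ℝ) * (F (w - e2 k j - e2 k' y) - F (w - e2 k j - e2 k' l)) := by
    intro j l
    unfold UU
    refine Finset.sum_congr rfl fun x _ => ?_
    have e1 : ∀ a, (w - e2 k j) k' a = w k' a := by
      intro a
      simp [e2, Ne.symm hkk]
    rw [e1, e1]
  have key := core (fun j => (w k j : ℝ)) (fun j => (w k' j : ℝ)) (fun j => Nat.cast_nonneg _)
    (fun j => Nat.cast_nonneg _) (fun j l => F (w - e2 k j - e2 k' l))
  refine key.trans (le_of_eq ?_)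
  unfold BB
  refine Finset.sum_congr rfl fun j _ => ?_
  rw [Finset.sum_comm]
  refine Finset.sum_congr rfl fun l _ => ?_
  split_ifs with hc
  · rw [hU1, hU2, Finset.sum_mul_sum]
  · refine Finset.sum_eq_zero fun x _ => Finset.sum_eq_zero fun y _ => ?_
    by_cases h1 : w k j = 0
    · simp [h1]
    · have h2 : w k' l = 0 := by
        by_contra h2
        exact hc ⟨Nat.one_le_iff_ne_zero.mpr h1, Nat.one_le_iff_ne_zero.mpr h2⟩
      simp [h2]

end Vale.Agent.P328.CRO
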