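import Mathlib

/-!
# P328, contingency tables: definitions and module statements (plan: notes/P328_plan_helper11.md)

`kappa` indexes the rows other than the hub; the hub row is `c - (sum of the other rows)`.
-/

namespace Vale.Agent.P328

open Finset

/-! ### one row against the hub (slice) -/

section slice

variable {n : ℕ}

/-- vectors `v ≤ s` with sum `a` -/
def Lv (s : Fin n → ℕ) (a : ℕ) : Finset (Fin n → ℕ) :=
  (Fintype.piFinset (fun j => range (s j + 1))).filter (fun v => ∑ j, v j = a)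

/-- unit vector -/
def e1 (j : Fin n) : Fin n → ℕ := fun l => if l = j then 1 else 0

/-- the flux into column `j` at `v` (one unit too many), inclusion rates -/
def Us (f : (Fin n → ℕ) → ℝ) (j : Fin n) (v : Fin n → ℕ) : ℝ :=
  ∑ l, (v l : ℝ) * (v j : ℝ) * (f (v - e1 l) - f (v - e1 j))

/-- the local form at `w` (two units too many) -/
def Bs (f : (Fin n → ℕ) → ℝ) (w : Fin n → ℕ) : ℝ :=
  ∑ j, ∑ c, if 1 ≤ w c ∧ 1 ≤ w j then Us f j (w - e1 c) * Us f c (w - e1 j) else 0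

/-- the generator on the slice -/
def Ls (s : Fin n → ℕ) (f : (Fin n → ℕ) → ℝ) (x : Fin n → ℕ) : ℝ :=
  ∑ j, if x j < s j then Us f j (x + e1 j) else 0

end slice

/-- module CRY: crystal operator of a product of chains (parenthesis matching).
Recursion on `n`: with `D(L) = u_1 + (D(rest) - (s_1 - u_1))^+`, `Z(L) = (s_1 - u_1 - D(rest))^+ + Z(rest)`,
`f` acts on the first column if `s_1 - u_1 > D(rest)` and on the rest otherwise; `D - Z = 2|u| - |s|`,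
`D (f u) = D u + 1`, `Z (f u) = Z u - 1`. -/
def StmtCRY : Prop := ∀ (n : ℕ) (s : Fin n → ℕ),
  ∃ (Z : (Fin n → ℕ) → ℕ) (f : (Fin n → ℕ) → (Fin n → ℕ)),
    (∀ u, (∀ c, u c ≤ s c) → ∑ c, s c ≤ Z u + 2 * ∑ c, u c) ∧
    (∀ u, (∀ c, u c ≤ s c) → 0 < Z u →
      ∃ c, u c < s c ∧ f u = Function.update u c (u c + 1) ∧ Z (f u) + 1 = Z u) ∧
    (∀ u u', (∀ c, u c ≤ s c) → (∀ c, u' c ≤ s c) → 0 < Z u → 0 < Z u' → f u = f u' → u = u')

/-- module PATH (needs CRY): vertex disjoint paths from the wall `v j = s j` to `v j = 0` -/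
def StmtPATH : Prop := ∀ (n : ℕ) (s : Fin n → ℕ) (p : ℕ) (j : Fin n) (g : (Fin n → ℕ) → ℝ),
  2 * p + 1 ≤ ∑ c, s c → 1 ≤ s j → s j ≤ p → (∀ v, v j = 0 → g v = 0) →
  ∑ v ∈ Lv s (p + 1), (if v j = s j then (g v) ^ 2 else 0) ≤
    (p : ℝ) * ∑ w ∈ Lv s (p + 2), ∑ c, (if c ≠ j ∧ 1 ≤ w c ∧ 1 ≤ w j then
      (g (w - e1 c) - g (w - e1 j)) ^ 2 else 0)

/-- module IDW: the local identity -/
def StmtIDW : Prop := ∀ (n : ℕ) (f : (Fin n → ℕ) → ℝ) (w : Fin n → ℕ),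
  (1 / (∑ j, (w j : ℝ))) * ∑ j, ∑ c, (if c ≠ j ∧ 1 ≤ w c ∧ 1 ≤ w j then
      (Us f j (w - e1 c) - Us f j (w - e1 j)) ^ 2 else 0) ≤ Bs f w

/-- module FIB (needs PATH, IDW): the two-row inequality -/
def StmtFIB : Prop := ∀ (n : ℕ) (s : Fin n → ℕ) (p : ℕ) (f : (Fin n → ℕ) → ℝ),
  2 * p + 1 ≤ ∑ c, s c →
  ∑ x ∈ Lv s p, (Ls s f x) ^ 2 ≤ ((p : ℝ) + 1) ^ 2 * ∑ w ∈ Lv s (p + 2), Bs f w

/-! ### tables -/

section tables

variable {κ : Type} [Fintype κ] [DecidableEq κ] {n : ℕ}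

/-- unit table -/
def e2 (k : κ) (j : Fin n) : κ → Fin n → ℕ := fun i l => if i = k ∧ l = j then 1 else 0

/-- tables with row sums `r` and column sums at most `c` -/
def TT (r : κ → ℕ) (c : Fin n → ℕ) : Finset (κ → Fin n → ℕ) :=
  (Fintype.piFinset (fun _ => Fintype.piFinset (fun j => range (c j + 1)))).filter
    (fun x => (∀ k, ∑ j, x k j = r k) ∧ ∀ j, ∑ k, x k j ≤ c j)

/-- one more unit in row `k` -/
def up (r : κ → ℕ) (k : κ) : κ → ℕ := fun i => if i = k then r i + 1 else r i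

/-- flux -/
def UU (F : (κ → Fin n → ℕ) → ℝ) (k : κ) (j : Fin n) (v : κ → Fin n → ℕ) : ℝ :=
  ∑ l, (v k l : ℝ) * (v k j : ℝ) * (F (v - e2 k l) - F (v - e2 k j))

/-- generator of row `k` against the hub -/
def LL (c : Fin n → ℕ) (F : (κ → Fin n → ℕ) → ℝ) (k : κ) (x : κ → Fin n → ℕ) : ℝ :=
  ∑ j, if ∑ i, x i j < c j then UU F k j (x + e2 k j) else 0

/-- local form at `w` -/
def BB (F : (κ → Fin n → ℕ) → ℝ) (k k' : κ) (w : κ → Fin n → ℕ) : ℝ :=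
  ∑ j, ∑ l, if 1 ≤ w k j ∧ 1 ≤ w k' l then
    UU F k j (w - e2 k' l) * UU F k' l (w - e2 k j) else 0

/-- average of `f` over the tables that agree with `x` outside row `k` -/
noncomputable def AV (S : Finset (κ → Fin n → ℕ)) (f : (κ → Fin n → ℕ) → ℝ) (k : κ)
    (x : κ → Fin n → ℕ) : ℝ :=
  (∑ y ∈ S.filter (fun y => ∀ i, i ≠ k → y i = x i), f y) /
    ((S.filter (fun y => ∀ i, i ≠ k → y i = x i)).card : ℝ)

end tables

/-- module EXP: expansion of the square; the pairs of moves that both take the last hub unit of a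
column give a square `>= 0` and are dropped -/
def StmtEXP : Prop := ∀ (κ : Type) [Fintype κ] [DecidableEq κ] (n : ℕ) (r : κ → ℕ)
    (c : Fin n → ℕ) (F : (κ → Fin n → ℕ) → ℝ),
  ∑ k, ∑ k', ∑ w ∈ TT (up (up r k) k') c, BB F k k' w ≤
    ∑ x ∈ TT r c, (∑ k, LL c F k x) ^ 2

/-- module CRO: cross terms are sums of squares (symmetrise over `j <-> l` in both rows) -/
def StmtCRO : Prop := ∀ (κ : Type) [Fintype κ] [DecidableEq κ] (n : ℕ)
    (F : (κ → Fin n → ℕ) → ℝ) (k k' : κ) (w : κ → Fin n → ℕ), k ≠ k' → 0 ≤ BB F k k' w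

/-- module SLC (needs FIB): the two-row inequality summed over the other rows -/
def StmtSLC : Prop := ∀ (κ : Type) [Fintype κ] [DecidableEq κ] (n : ℕ) (r : κ → ℕ)
    (c : Fin n → ℕ) (F : (κ → Fin n → ℕ) → ℝ) (k : κ), ∑ i, r i + r k + 1 ≤ ∑ j, c j →
  ∑ x ∈ TT r c, (LL c F k x) ^ 2 ≤
    ((r k : ℝ) + 1) ^ 2 * ∑ w ∈ TT (up (up r k) k) c, BB F k k w

/-- module SA: self-adjointness and Dirichlet form -/
def StmtSA : Prop := ∀ (κ : Type) [Fintype κ] [DecidableEq κ] (n : ℕ) (r : κ → ℕ)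
    (c : Fin n → ℕ) (F G : (κ → Fin n → ℕ) → ℝ) (k : κ),
  ∑ x ∈ TT r c, G x * LL c F k x =
    - (∑ v ∈ TT (up r k) c, ∑ j, ∑ l, (v k l : ℝ) * (v k j : ℝ) *
      ((F (v - e2 k l) - F (v - e2 k j)) * (G (v - e2 k l) - G (v - e2 k j)))) / 2

/-- module CONN: the hub moves connect all tables -/
def StmtCONN : Prop := ∀ (κ : Type) [Fintype κ] [DecidableEq κ] (n : ℕ) (r : κ → ℕ)
    (c : Fin n → ℕ) (F : (κ → Fin n → ℕ) → ℝ), ∑ i, r i < ∑ j, c j →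
  (∀ k, ∀ v ∈ TT (up r k) c, ∀ j l, 1 ≤ v k j → 1 ≤ v k l → F (v - e2 k l) = F (v - e2 k j)) →
  ∀ x ∈ TT r c, ∀ y ∈ TT r c, F x = F y

/-- module SOLV (needs SA, CONN, linear algebra): mean zero functions are in the range of `L` -/
def StmtSOLV : Prop := ∀ (κ : Type) [Fintype κ] [DecidableEq κ] (n : ℕ) (r : κ → ℕ)
    (c : Fin n → ℕ) (f : (κ → Fin n → ℕ) → ℝ), ∑ i, r i < ∑ j, c j →
  ∑ x ∈ TT r c, f x = 0 → ∃ F : (κ → Fin n → ℕ) → ℝ, ∀ x ∈ TT r c, ∑ k, LL c F k x = f x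

/-- module POIN (needs EXP, CRO, SLC, SA, SOLV): spectral gap of the row-pair resampling -/
def StmtPOIN : Prop := ∀ (κ : Type) [Fintype κ] [DecidableEq κ] (n : ℕ) (r : κ → ℕ)
    (c : Fin n → ℕ) (p : ℕ) (f : (κ → Fin n → ℕ) → ℝ), (∀ k, r k ≤ p) →
  (∀ k, ∑ i, r i + r k + 1 ≤ ∑ j, c j) → ∑ i, r i < ∑ j, c j →
  ∑ x ∈ TT r c, f x = 0 →
  ∑ x ∈ TT r c, (f x) ^ 2 ≤
    ((p : ℝ) + 1) ^ 2 * ∑ k, ∑ x ∈ TT r c, (f x - AV (TT r c) f k x) ^ 2

end Vale.Agent.P328
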