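import Vale.Agent.P328.Defs

/-!
# P328: unit-switch chain (simulable), module statements HARD, SLCD, POID
-/

namespace Vale.Agent.P328

open Finset

/-- module HARD (needs CRY, IDW; helper23 / helper16): the two-row bracket dominates the Dirichlet
form of the rates `x_l (x_j + 1)` -/
def StmtHARD : Prop := ∀ (n : ℕ) (s : Fin n → ℕ) (p : ℕ) (f : (Fin n → ℕ) → ℝ),
  2 * p + 1 ≤ ∑ c, s c →
  ∑ v ∈ Lv s (p + 1), ∑ j, ∑ l, (v l : ℝ) * (v j : ℝ) * (f (v - e1 l) - f (v - e1 j)) ^ 2 ≤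
    (4 * (n : ℝ) * ((p : ℝ) + 2) ^ 5) * ∑ w ∈ Lv s (p + 2), Bs f w

/-- module SLCD (needs HARD): fibre transfer, as SLC -/
def StmtSLCD : Prop := ∀ (κ : Type) [Fintype κ] [DecidableEq κ] (n : ℕ) (r : κ → ℕ)
    (c : Fin n → ℕ) (F : (κ → Fin n → ℕ) → ℝ) (k : κ), ∑ i, r i + r k + 1 ≤ ∑ j, c j →
  ∑ v ∈ TT (up r k) c, ∑ j, ∑ l, (v k l : ℝ) * (v k j : ℝ) *
      (F (v - e2 k l) - F (v - e2 k j)) ^ 2 ≤
    (4 * (n : ℝ) * ((r k : ℝ) + 2) ^ 5) * ∑ w ∈ TT (up (up r k) k) c, BB F k k w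

/-- module POID (needs EXP, CRO, SLCD, SA, SOLV): Poincare inequality of the unit-switch chain -/
def StmtPOID : Prop := ∀ (κ : Type) [Fintype κ] [DecidableEq κ] (n : ℕ) (r : κ → ℕ)
    (c : Fin n → ℕ) (p : ℕ) (f : (κ → Fin n → ℕ) → ℝ), (∀ k, r k ≤ p) →
  (∀ k, ∑ i, r i + r k + 1 ≤ ∑ j, c j) → ∑ i, r i < ∑ j, c j →
  ∑ x ∈ TT r c, f x = 0 →
  ∑ x ∈ TT r c, (f x) ^ 2 ≤
    ((n : ℝ) * ((p : ℝ) + 2) ^ 5) * ∑ k, ∑ v ∈ TT (up r k) c, ∑ j, ∑ l,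
      (v k l : ℝ) * (v k j : ℝ) * (f (v - e2 k l) - f (v - e2 k j)) ^ 2

end Vale.Agent.P328
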