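import Vale.Agent.P328.Defs

/-!
# P328, module EXP: expansion of the square on tables
-/

namespace Vale.Agent.P328.EXP

open Finset

variable {κ : Type} [Fintype κ] [DecidableEq κ] {n : ℕ}

theorem mem_TT {r : κ → ℕ} {c : Fin n → ℕ} {x : κ → Fin n → ℕ} :
    x ∈ TT r c ↔ (∀ k, ∑ j, x k j = r k) ∧ ∀ j, ∑ k, x k j ≤ c j := by
  unfold TT
  rw [mem_filter]
  refine ⟨fun h => h.2, fun h => ⟨?_, h⟩⟩
  rw [Fintype.mem_piFinset]
  intro k
  rw [Fintype.mem_piFinset]
  intro j
  rw [mem_range]
  have h1 : x k j ≤ ∑ k, x k j := single_le_sum (f := fun k => x k j) (fun _ _ => Nat.zero_le _)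
    (mem_univ k)
  have := h.2 j
  omega

theorem col_e2 (k : κ) (j l : Fin n) : ∑ i, e2 k j i l = if l = j then 1 else 0 := by
  unfold e2
  by_cases h : l = j
  · simp [h]
  · simp [h]

theorem row_e2 (k i : κ) (j : Fin n) : ∑ l, e2 k j i l = if i = k then 1 else 0 := by
  unfold e2
  by_cases h : i = k
  · simp [h]
  · simp [h]

theorem up_eq (r : κ → ℕ) (k i : κ) : up r k i = r i + if i = k then 1 else 0 := by
  unfold up
  split_ifs <;> rfl

/-- column condition -/
def cc (c : Fin n → ℕ) (j l : Fin n) (x : κ → Fin n → ℕ) : Prop :=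
  ∀ a, (∑ i, x i a) + (if a = j then 1 else 0) + (if a = l then 1 else 0) ≤ c a

instance (c : Fin n → ℕ) (j l : Fin n) (x : κ → Fin n → ℕ) : Decidable (cc c j l x) := by
  unfold cc
  infer_instance

theorem mem_add {r : κ → ℕ} {c : Fin n → ℕ} {k k' : κ} {j l : Fin n} {x : κ → Fin n → ℕ} :
    x + e2 k j + e2 k' l ∈ TT (up (up r k) k') c ↔
      (∀ i, ∑ a, x i a = r i) ∧ cc c j l x := by
  rw [mem_TT]
  have h1 : ∀ i, ∑ a, (x + e2 k j + e2 k' l) i a =
      (∑ a, x i a) + (if i = k then 1 else 0) + (if i = k' then 1 else 0) := by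
    intro i
    simp only [Pi.add_apply, sum_add_distrib, row_e2]
  have h2 : ∀ a, ∑ i, (x + e2 k j + e2 k' l) i a =
      (∑ i, x i a) + (if a = j then 1 else 0) + (if a = l then 1 else 0) := by
    intro a
    simp only [Pi.add_apply, sum_add_distrib, col_e2]
  simp only [h1, h2, up_eq]
  unfold cc
  constructor
  · rintro ⟨h3, h4⟩
    exact ⟨fun i => by have := h3 i; omega, h4⟩
  · rintro ⟨h3, h4⟩
    exact ⟨fun i => by rw [h3 i], h4⟩

theorem UU_zero (F : (κ → Fin n → ℕ) → ℝ) (k : κ) (j : Fin n) (v : κ → Fin n → ℕ)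
    (h : v k j = 0) : UU F k j v = 0 := by
  unfold UU
  refine sum_eq_zero fun l _ => ?_
  rw [h]
  simp

theorem sub_add {w : κ → Fin n → ℕ} {k k' : κ} {j l : Fin n} (h1 : 1 ≤ w k j)
    (h2 : 1 ≤ w k' l) (h3 : k = k' → j = l → 2 ≤ w k j) :
    w - e2 k j - e2 k' l + e2 k j + e2 k' l = w := by
  funext i a
  simp only [Pi.add_apply, Pi.sub_apply]
  unfold e2
  by_cases ha : i = k ∧ a = j
  · obtain ⟨rfl, rfl⟩ := ha
    by_cases hb : i = k' ∧ a = l
    · obtain ⟨rfl, rfl⟩ := hb
      have := h3 rfl rfl
      simp only [and_self, if_true]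
      omega
    · simp only [and_self, if_true, if_neg hb]
      omega
  · by_cases hb : i = k' ∧ a = l
    · obtain ⟨rfl, rfl⟩ := hb
      simp only [and_self, if_true, if_neg ha]
      omega
    · simp only [if_neg ha, if_neg hb]
      omega

theorem main_sum (r : κ → ℕ) (c : Fin n → ℕ) (F : (κ → Fin n → ℕ) → ℝ) (k k' : κ)
    (j l : Fin n) :
    ∑ w ∈ TT (up (up r k) k') c, (if 1 ≤ w k j ∧ 1 ≤ w k' l then
      UU F k j (w - e2 k' l) * UU F k' l (w - e2 k j) else 0) =
    ∑ x ∈ TT r c, if cc c j l x then UU F k j (x + e2 k j) * UU F k' l (x + e2 k' l) else 0 := by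
  rw [← sum_filter (fun x => cc c j l x)]
  have hinj : Function.Injective (fun x : κ → Fin n → ℕ => x + e2 k j + e2 k' l) := by
    intro x y hxy
    exact add_right_cancel (add_right_cancel hxy)
  have h1 : ((TT r c).filter (fun x => cc c j l x)).image (fun x => x + e2 k j + e2 k' l) ⊆
      TT (up (up r k) k') c := by
    intro w hw
    rw [mem_image] at hw
    obtain ⟨x, hx, rfl⟩ := hw
    rw [mem_filter, mem_TT] at hx
    exact mem_add.mpr ⟨hx.1.1, hx.2⟩
  rw [← sum_subset h1, sum_image (fun x _ y _ h => hinj h)]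
  · refine sum_congr rfl fun x _ => ?_
    have e1 : x + e2 k j + e2 k' l - e2 k' l = x + e2 k j := add_tsub_cancel_right _ _
    have e2' : x + e2 k j + e2 k' l - e2 k j = x + e2 k' l := by
      rw [add_right_comm]
      exact add_tsub_cancel_right _ _
    have h2 : 1 ≤ (x + e2 k j + e2 k' l) k j := by
      simp only [Pi.add_apply]
      unfold e2
      simp only [and_self, if_true]
      omega
    have h3 : 1 ≤ (x + e2 k j + e2 k' l) k' l := by
      simp only [Pi.add_apply]
      unfold e2
      simp only [and_self, if_true]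
      omega
    rw [if_pos ⟨h2, h3⟩, e1, e2']
  · intro w hw hnot
    by_cases hc : 1 ≤ w k j ∧ 1 ≤ w k' l
    · rw [if_pos hc]
      by_cases h3 : k = k' → j = l → 2 ≤ w k j
      · exfalso
        apply hnot
        have h4 := sub_add hc.1 hc.2 h3
        rw [mem_image]
        refine ⟨w - e2 k j - e2 k' l, ?_, h4⟩
        have h5 : w - e2 k j - e2 k' l + e2 k j + e2 k' l ∈ TT (up (up r k) k') c := by
          rw [h4]
          exact hw
        obtain ⟨h6, h7⟩ := mem_add.mp h5
        rw [mem_filter, mem_TT]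
        refine ⟨⟨h6, fun a => ?_⟩, h7⟩
        have := h7 a
        omega
      · push Not at h3
        obtain ⟨rfl, rfl, h4⟩ := h3
        rw [UU_zero F k j (w - e2 k j), zero_mul]
        simp only [Pi.sub_apply]
        unfold e2
        simp only [and_self, if_true]
        omega
    · rw [if_neg hc]

theorem thm : StmtEXP := by
  intro κ _ _ n r c F
  have e1 : ∑ k, ∑ k', ∑ w ∈ TT (up (up r k) k') c, BB F k k' w =
      ∑ x ∈ TT r c, ∑ j, ∑ l, if cc c j l x then
        (∑ k, UU F k j (x + e2 k j)) * (∑ k, UU F k l (x + e2 k l)) else 0 := by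
    have h1 : ∀ k k', ∑ w ∈ TT (up (up r k) k') c, BB F k k' w =
        ∑ x ∈ TT r c, ∑ j, ∑ l, if cc c j l x then
          UU F k j (x + e2 k j) * UU F k' l (x + e2 k' l) else 0 := by
      intro k k'
      unfold BB
      rw [sum_comm, sum_comm (s := TT r c)]
      refine sum_congr rfl fun j _ => ?_
      rw [sum_comm, sum_comm (s := TT r c)]
      exact sum_congr rfl fun l _ => main_sum r c F k k' j l
    simp_rw [h1]
    rw [sum_congr rfl (fun k _ => sum_comm), sum_comm]
    refine sum_congr rfl fun x _ => ?_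
    rw [sum_congr rfl (fun k _ => sum_comm), sum_comm]
    refine sum_congr rfl fun j _ => ?_
    rw [sum_congr rfl (fun k _ => sum_comm), sum_comm]
    refine sum_congr rfl fun l _ => ?_
    by_cases h : cc c j l x
    · simp only [if_pos h]
      rw [sum_mul_sum]
    · simp only [if_neg h, sum_const_zero]
  rw [e1]
  refine sum_le_sum fun x hx => ?_
  have hxc := (mem_TT.mp hx).2
  set S : Fin n → ℝ := fun j => ∑ k, UU F k j (x + e2 k j) with hS
  have h2 : ∑ k, LL c F k x = ∑ j, if ∑ i, x i j < c j then S j else 0 := by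
    unfold LL
    rw [sum_comm]
    refine sum_congr rfl fun j _ => ?_
    by_cases h : ∑ i, x i j < c j
    · simp only [if_pos h, hS]
    · simp only [if_neg h, sum_const_zero]
  rw [h2, sq, sum_mul_sum]
  refine sum_le_sum fun j _ => sum_le_sum fun l _ => ?_
  show (if cc c j l x then S j * S l else 0) ≤ _
  by_cases hjl : j = l
  · subst hjl
    by_cases h : cc c j j x
    · have h3 : ∑ i, x i j < c j := by
        have := h j
        simp only [if_true] at this
        omega
      rw [if_pos h, if_pos h3]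
    · rw [if_neg h]
      split_ifs
      · exact mul_self_nonneg _
      · simp
  · by_cases h : cc c j l x
    · have h3 : ∑ i, x i j < c j := by
        have := h j
        rw [if_pos rfl, if_neg hjl] at this
        omega
      have h4 : ∑ i, x i l < c l := by
        have := h l
        rw [if_neg (Ne.symm hjl), if_pos rfl] at this
        omega
      rw [if_pos h, if_pos h3, if_pos h4]
    · rw [if_neg h]
      have h5 : ¬ (∑ i, x i j < c j ∧ ∑ i, x i l < c l) := by
        rintro ⟨h6, h7⟩
        apply h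
        intro a
        by_cases ha : a = j
        · subst ha
          rw [if_pos rfl, if_neg hjl]
          omega
        · by_cases hb : a = l
          · subst hb
            rw [if_neg ha, if_pos rfl]
            omega
          · rw [if_neg ha, if_neg hb]
            have := hxc a
            omega
      by_cases h6 : ∑ i, x i j < c j
      · have h7 : ¬ (∑ i, x i l < c l) := fun h7 => h5 ⟨h6, h7⟩
        rw [if_neg h7, mul_zero]
      · rw [if_neg h6, zero_mul]

end Vale.Agent.P328.EXP
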