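import Vale.Agent.P328.Defs

/-! # P328, module IDW: the local identity -/

namespace Vale.Agent.P328.IDW

open Finset Vale.Agent.P328

variable {n : ℕ}

/-- weighted variance inequality -/
theorem var_ge (a x : Fin n → ℝ) (ha : ∀ c, 0 ≤ a c) (j : Fin n) (hM : 0 < ∑ c, a c) :
    (a j / ∑ c, a c) * ∑ c, a c * (x c - x j) ^ 2 ≤
      ∑ c, a c * (x c) ^ 2 - (∑ c, a c * x c) ^ 2 / (∑ c, a c) := by
  set M := ∑ c, a c with hMdef
  have h1 : ∑ c, a c * (x c) ^ 2 - (∑ c, a c * x c) ^ 2 / M =
      ∑ c, a c * (x c - x j) ^ 2 - (∑ c, a c * (x c - x j)) ^ 2 / M := by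
    have e1 : ∑ c, a c * (x c - x j) ^ 2 =
        ∑ c, a c * (x c) ^ 2 - 2 * x j * ∑ c, a c * x c + (x j) ^ 2 * M := by
      rw [hMdef, mul_sum, mul_sum, ← sum_sub_distrib, ← sum_add_distrib]
      exact sum_congr rfl fun c _ => by ring
    have e2 : ∑ c, a c * (x c - x j) = ∑ c, a c * x c - x j * M := by
      rw [hMdef, mul_sum, ← sum_sub_distrib]
      exact sum_congr rfl fun c _ => by ring
    rw [e1, e2]
    field_simp
    ring
  have h2 : (∑ c, a c * (x c - x j)) ^ 2 ≤ (M - a j) * ∑ c, a c * (x c - x j) ^ 2 := by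
    have e3 : ∑ c, a c * (x c - x j) = ∑ c ∈ univ.erase j, a c * (x c - x j) := by
      rw [← add_sum_erase univ _ (mem_univ j)]
      simp
    have e4 : ∑ c, a c * (x c - x j) ^ 2 = ∑ c ∈ univ.erase j, a c * (x c - x j) ^ 2 := by
      rw [← add_sum_erase univ _ (mem_univ j)]
      simp
    have e5 : M - a j = ∑ c ∈ univ.erase j, a c := by
      rw [hMdef, ← add_sum_erase univ _ (mem_univ j)]
      ring
    rw [e3, e4, e5]
    have h := sum_sq_le_sum_mul_sum_of_sq_le_mul (univ.erase j) (r := fun c => a c * (x c - x j))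
      (f := a) (g := fun c => a c * (x c - x j) ^ 2) (fun c _ => ha c)
      (fun c _ => mul_nonneg (ha c) (sq_nonneg _)) (fun c _ => le_of_eq (by ring))
    exact h
  rw [h1]
  have h3 : (∑ c, a c * (x c - x j)) ^ 2 / M ≤ (M - a j) * (∑ c, a c * (x c - x j) ^ 2) / M := by
    gcongr
  have h4 : ∑ c, a c * (x c - x j) ^ 2 - (M - a j) * (∑ c, a c * (x c - x j) ^ 2) / M =
      (a j / M) * ∑ c, a c * (x c - x j) ^ 2 := by
    field_simp
    ring
  linarith

/-- the real version of the local identity -/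
theorem real_id (a : Fin n → ℝ) (G : Fin n → Fin n → ℝ) (hG : ∀ c l, G c l = G l c)
    (hM : 0 < ∑ c, a c) (H : Fin n → ℝ) :
    ∑ j, ∑ c, a c * a j * ((H c - (∑ c, a c - 1) * G c j) * (H j - (∑ c, a c - 1) * G j c)) =
    ∑ j, (∑ c, a c * a j * (H c - (∑ c, a c - 1) * G c j) ^ 2 -
      a j * (∑ c, a c * H c - (∑ c, a c) * H j) ^ 2 / (∑ c, a c)) := by
  set M := ∑ c, a c with hMdef
  set S := ∑ c, a c * H c with hSdef
  have e1 : ∑ j, a j * (S - M * H j) ^ 2 / M = M * ∑ j, a j * (H j) ^ 2 - S ^ 2 := by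
    have : ∀ j, a j * (S - M * H j) ^ 2 / M =
        (S ^ 2 / M) * a j - 2 * S * (a j * H j) + M * (a j * (H j) ^ 2) := by
      intro j
      field_simp
      ring
    rw [sum_congr rfl fun j _ => this j, sum_add_distrib, sum_sub_distrib, ← mul_sum, ← mul_sum,
      ← mul_sum, ← hMdef, ← hSdef]
    field_simp
    ring
  have e2 : ∑ j, ∑ c, a c * a j * (H c - (M - 1) * G c j) ^ 2 =
      ∑ j, ∑ c, a c * a j * (H j - (M - 1) * G j c) ^ 2 := by
    rw [sum_comm]
    exact sum_congr rfl fun j _ => sum_congr rfl fun c _ => by ring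
  have e3 : ∑ j, ∑ c, a c * a j * (H c - H j) ^ 2 = 2 * (M * ∑ j, a j * (H j) ^ 2 - S ^ 2) := by
    have h1 : ∀ j, ∑ c, a c * a j * (H c - H j) ^ 2 =
        a j * (∑ c, a c * (H c) ^ 2) - 2 * (a j * H j) * S + (a j * (H j) ^ 2) * M := by
      intro j
      rw [hSdef, hMdef, mul_sum, mul_sum, mul_sum, ← sum_sub_distrib, ← sum_add_distrib]
      exact sum_congr rfl fun c _ => by ring
    rw [sum_congr rfl fun j _ => h1 j, sum_add_distrib, sum_sub_distrib, ← sum_mul, ← sum_mul,
      ← sum_mul, ← mul_sum, ← hMdef, ← hSdef]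
    ring
  have e4 : ∑ j, ∑ c, a c * a j * (H c - H j) ^ 2 =
      ∑ j, ∑ c, a c * a j * (H c - (M - 1) * G c j) ^ 2 +
      ∑ j, ∑ c, a c * a j * (H j - (M - 1) * G j c) ^ 2 -
      2 * ∑ j, ∑ c, a c * a j * ((H c - (M - 1) * G c j) * (H j - (M - 1) * G j c)) := by
    rw [mul_sum, ← sum_add_distrib, ← sum_sub_distrib]
    refine sum_congr rfl fun j _ => ?_
    rw [mul_sum, ← sum_add_distrib, ← sum_sub_distrib]
    refine sum_congr rfl fun c _ => ?_
    rw [hG c j]
    ring
  rw [sum_sub_distrib, e1]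
  linarith

/-- weighted sum of the fluxes -/
theorem sum_flux (a : Fin n → ℝ) (G : Fin n → Fin n → ℝ) (hG : ∀ c l, G c l = G l c)
    (H : Fin n → ℝ) (hH : ∀ c, H c = ∑ l, (a l - if l = c then 1 else 0) * G c l) (j : Fin n) :
    ∑ c, a c * ((a j - if j = c then 1 else 0) * (H c - (∑ c, a c - 1) * G c j)) =
      a j * (∑ c, a c * H c - (∑ c, a c) * H j) := by
  set M := ∑ c, a c with hMdef
  have h1 : H j = ∑ l, a l * G j l - G j j := by
    rw [hH j]
    simp [sub_mul, sum_sub_distrib]
  have h2 : ∑ c, a c * ((a j - if j = c then 1 else 0) * (H c - (M - 1) * G c j)) =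
      a j * ∑ c, a c * H c - (M - 1) * a j * ∑ c, a c * G j c -
        a j * (H j - (M - 1) * G j j) := by
    have : ∀ c, a c * ((a j - if j = c then 1 else 0) * (H c - (M - 1) * G c j)) =
        a j * (a c * H c) - (M - 1) * a j * (a c * G j c) -
          (if j = c then a c * (H c - (M - 1) * G c j) else 0) := by
      intro c
      rw [hG c j]
      split_ifs with h
      · ring
      · ring
    rw [sum_congr rfl fun c _ => this c, sum_sub_distrib, sum_sub_distrib, ← mul_sum, ← mul_sum]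
    simp
  rw [h2]
  have h3 : ∑ l, a l * G j l = H j + G j j := by rw [h1]; ring
  rw [h3]
  ring

/-- the flux in terms of `H` and `G` -/
theorem Us_eq (f : (Fin n → ℕ) → ℝ) (w : Fin n → ℕ) (c j : Fin n) (hc : 1 ≤ w c) :
    Us f j (w - e1 c) = ((w j : ℝ) - if j = c then 1 else 0) *
      ((∑ l, ((w l : ℝ) - if l = c then 1 else 0) * f (w - e1 c - e1 l)) -
        ((∑ l, (w l : ℝ)) - 1) * f (w - e1 c - e1 j)) := by
  have hcast : ∀ l, (((w - e1 c) l : ℕ) : ℝ) = (w l : ℝ) - if l = c then 1 else 0 := by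
    intro l
    by_cases h : l = c
    · subst h
      simp only [Pi.sub_apply, e1, if_true]
      rw [Nat.cast_sub hc]
      simp
    · simp [e1, h]
  unfold Us
  have h1 : ∀ l, (((w - e1 c) l : ℕ) : ℝ) * (((w - e1 c) j : ℕ) : ℝ) *
      (f (w - e1 c - e1 l) - f (w - e1 c - e1 j)) =
      ((w j : ℝ) - if j = c then 1 else 0) * ((((w l : ℝ) - if l = c then 1 else 0) *
        f (w - e1 c - e1 l)) - ((w l : ℝ) - if l = c then 1 else 0) * f (w - e1 c - e1 j)) := by
    intro l
    rw [hcast l, hcast j]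
    ring
  rw [sum_congr rfl fun l _ => h1 l, ← mul_sum, sum_sub_distrib, ← sum_mul]
  congr 3
  rw [sum_sub_distrib]
  simp

theorem thm : StmtIDW := by
  intro n f w
  by_cases hM : ∑ j, (w j : ℝ) = 0
  · have hw : ∀ j, w j = 0 := by
      intro j
      have := (sum_eq_zero_iff_of_nonneg (fun j _ => Nat.cast_nonneg (w j))).1 hM j (mem_univ j)
      exact_mod_cast this
    have : Bs f w = 0 := by
      unfold Bs
      refine sum_eq_zero fun j _ => sum_eq_zero fun c _ => ?_
      rw [if_neg]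
      rw [hw j]
      omega
    rw [this, hM]
    simp
  · have hM0 : 0 < ∑ j, (w j : ℝ) :=
      lt_of_le_of_ne (sum_nonneg fun j _ => Nat.cast_nonneg _) (Ne.symm hM)
    set a : Fin n → ℝ := fun j => (w j : ℝ) with ha
    have ha0 : ∀ c, 0 ≤ a c := fun c => Nat.cast_nonneg _
    set G : Fin n → Fin n → ℝ := fun c l => f (w - e1 c - e1 l) with hGdef
    have hG : ∀ c l, G c l = G l c := by
      intro c l
      simp only [hGdef]
      congr 1
      funext i
      simp only [Pi.sub_apply]
      omega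
    set H : Fin n → ℝ := fun c => ∑ l, (a l - if l = c then 1 else 0) * G c l with hHdef
    have hH : ∀ c, H c = ∑ l, (a l - if l = c then 1 else 0) * G c l := fun c => rfl
    set M := ∑ c, a c with hMdef
    have hU : ∀ c j, 1 ≤ w c → Us f j (w - e1 c) =
        (a j - if j = c then 1 else 0) * (H c - (M - 1) * G c j) := by
      intro c j hc
      rw [Us_eq f w c j hc]
    -- expansion of Bs
    have hB : Bs f w = ∑ j, (∑ c, a c * a j *
        ((H c - (M - 1) * G c j) * (H j - (M - 1) * G j c)) +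
        ((if 1 ≤ w j then (Us f j (w - e1 j)) ^ 2 else 0) -
          a j * a j * (H j - (M - 1) * G j j) ^ 2)) := by
      unfold Bs
      refine sum_congr rfl fun j _ => ?_
      rw [← add_sum_erase univ _ (mem_univ j), ← add_sum_erase univ (fun c => a c * a j *
        ((H c - (M - 1) * G c j) * (H j - (M - 1) * G j c))) (mem_univ j)]
      have e1' : ∑ c ∈ univ.erase j, (if 1 ≤ w c ∧ 1 ≤ w j then
          Us f j (w - e1 c) * Us f c (w - e1 j) else 0) =
          ∑ c ∈ univ.erase j, a c * a j *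
            ((H c - (M - 1) * G c j) * (H j - (M - 1) * G j c)) := by
        refine sum_congr rfl fun c hc => ?_
        have hcj : c ≠ j := (mem_erase.1 hc).1
        by_cases h : 1 ≤ w c ∧ 1 ≤ w j
        · rw [if_pos h, hU c j h.1, hU j c h.2, if_neg (Ne.symm hcj), if_neg hcj]
          ring
        · rw [if_neg h]
          have : a c * a j = 0 := by
            rcases Nat.eq_zero_or_pos (w c) with h0 | h0
            · simp [ha, h0]
            · rcases Nat.eq_zero_or_pos (w j) with h1 | h1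
              · simp [ha, h1]
              · exact absurd ⟨h0, h1⟩ h
          rw [this, zero_mul]
      rw [e1']
      have e2' : (if 1 ≤ w j ∧ 1 ≤ w j then Us f j (w - e1 j) * Us f j (w - e1 j) else 0) =
          (if 1 ≤ w j then (Us f j (w - e1 j)) ^ 2 else 0) := by
        by_cases h : 1 ≤ w j
        · rw [if_pos ⟨h, h⟩, if_pos h]
          ring
        · rw [if_neg (fun h' => h h'.1), if_neg h]
      rw [e2']
      ring
    rw [hB, sum_add_distrib, real_id a G hG hM0 H, ← sum_add_distrib, mul_sum]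
    refine sum_le_sum fun j _ => ?_
    by_cases hj : 1 ≤ w j
    · have haj : (1 : ℝ) ≤ a j := by simp only [ha]; exact_mod_cast hj
      have haj0 : 0 < a j := by linarith
      set x : Fin n → ℝ := fun c => (a j - if j = c then 1 else 0) * (H c - (M - 1) * G c j)
        with hx
      have hv := var_ge a x ha0 j hM0
      rw [← hMdef] at hv
      have hs : ∑ c, a c * x c = a j * (∑ c, a c * H c - M * H j) := sum_flux a G hG H hH j
      have hxj : Us f j (w - e1 j) = x j := by rw [hU j j hj]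
      have hq : ∑ c, a c * (x c) ^ 2 = a j * (∑ c, a c * a j * (H c - (M - 1) * G c j) ^ 2 +
          ((x j) ^ 2 - a j * a j * (H j - (M - 1) * G j j) ^ 2)) := by
        rw [← add_sum_erase univ _ (mem_univ j), ← add_sum_erase univ (fun c => a c * a j *
          (H c - (M - 1) * G c j) ^ 2) (mem_univ j)]
        have e3 : ∑ c ∈ univ.erase j, a c * (x c) ^ 2 =
            a j * ∑ c ∈ univ.erase j, a c * a j * (H c - (M - 1) * G c j) ^ 2 := by
          rw [mul_sum]
          refine sum_congr rfl fun c hc => ?_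
          have hcj : c ≠ j := (mem_erase.1 hc).1
          simp only [hx, if_neg (Ne.symm hcj)]
          ring
        rw [e3]
        ring
      have hT : ∑ c, (if c ≠ j ∧ 1 ≤ w c ∧ 1 ≤ w j then
          (Us f j (w - e1 c) - Us f j (w - e1 j)) ^ 2 else 0) ≤ ∑ c, a c * (x c - x j) ^ 2 := by
        refine sum_le_sum fun c _ => ?_
        by_cases h : c ≠ j ∧ 1 ≤ w c ∧ 1 ≤ w j
        · rw [if_pos h, hU c j h.2.1, hxj]
          have hac : (1 : ℝ) ≤ a c := by simp only [ha]; exact_mod_cast h.2.1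
          have : 0 ≤ (x c - x j) ^ 2 := sq_nonneg _
          change (x c - x j) ^ 2 ≤ a c * (x c - x j) ^ 2
          nlinarith
        · rw [if_neg h]
          exact mul_nonneg (ha0 c) (sq_nonneg _)
      rw [if_pos hj, hxj]
      have h5 : (1 / M) * ∑ c, (if c ≠ j ∧ 1 ≤ w c ∧ 1 ≤ w j then
          (Us f j (w - e1 c) - x j) ^ 2 else 0) ≤ (1 / M) * ∑ c, a c * (x c - x j) ^ 2 := by
        rw [hxj] at hT
        exact mul_le_mul_of_nonneg_left hT (by positivity)
      refine h5.trans ?_
      rw [hs, hq] at hv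
      have h6 : a j * ((1 / M) * ∑ c, a c * (x c - x j) ^ 2) ≤
          a j * (∑ c, a c * a j * (H c - (M - 1) * G c j) ^ 2 -
            a j * (∑ c, a c * H c - M * H j) ^ 2 / M +
            ((x j) ^ 2 - a j * a j * (H j - (M - 1) * G j j) ^ 2)) := by
        have e6 : a j * ((1 / M) * ∑ c, a c * (x c - x j) ^ 2) =
            (a j / M) * ∑ c, a c * (x c - x j) ^ 2 := by ring
        rw [e6]
        refine hv.trans (le_of_eq ?_)
        field_simp
        ring
      exact le_of_mul_le_mul_left h6 haj0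
    · have hw0 : w j = 0 := by omega
      have haj : a j = 0 := by simp [ha, hw0]
      rw [haj, if_neg hj]
      have : ∑ c, (if c ≠ j ∧ 1 ≤ w c ∧ 1 ≤ w j then
          (Us f j (w - e1 c) - Us f j (w - e1 j)) ^ 2 else 0) = 0 :=
        sum_eq_zero fun c _ => if_neg fun h => hj h.2.2
      rw [this]
      simp

end Vale.Agent.P328.IDW
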