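import Vale.Agent.P335.Mix

/-!
P328: spectral gap to total variation with an arbitrary precision (from the P335 module MIX).
-/

namespace Vale.Agent.P328.MixEps

open Finset Vale.Agent.P335 Vale.Agent.P335.MX

/-- from a Poincare inequality to total variation: the lazy chain `(1+K)/2` on the closed set `Om`
satisfies `TV ≤ (1/2) sqrt|Om| (1-lam)^t`. -/
theorem mix_tv {X : Type} [Fintype X] [DecidableEq X] (K : Matrix X X ℝ) (Om : Finset X)
    (lam : ℝ) (t : ℕ) (h0 : ∀ x y, 0 ≤ K x y) (hs : ∀ x y, K x y = K y x)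
    (h1 : ∀ x, ∑ y, K x y = 1) (hc : ∀ x y, K x y ≠ 0 → x ∈ Om → y ∈ Om) (hl1 : lam ≤ 1)
    (hP : ∀ f : X → ℝ, lam * ∑ x ∈ Om, (f x - (∑ z ∈ Om, f z) / (Om.card : ℝ)) ^ 2 ≤
      (1 / 4) * ∑ x ∈ Om, ∑ y ∈ Om, K x y * (f x - f y) ^ 2) :
    ∀ x ∈ Om, (1 / 2) * ∑ y, |((((1 / 2 : ℝ) • (1 + K)) ^ t) x y) -
      (if y ∈ Om then 1 / (Om.card : ℝ) else 0)| ≤
        (1 / 2) * (Real.sqrt (Om.card : ℝ) * (1 - lam) ^ t) := by
  intro x hx
  let pi : X → ℝ := fun y => if y ∈ Om then 1 / (Om.card : ℝ) else 0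
  let g : ℕ → X → ℝ := fun s y => ((((1 / 2 : ℝ) • (1 + K)) ^ s) x y) - pi y
  have hcard : 0 < (Om.card : ℝ) := by
    exact_mod_cast Finset.card_pos.2 ⟨x, hx⟩
  have hApi : ∀ y, A K pi y = pi y := by
    intro y
    have h : ∑ z, K y z * pi z = pi y := by
      by_cases hy : y ∈ Om
      · have h2 : ∀ z, K y z * pi z = K y z * (1 / (Om.card : ℝ)) := by
          intro z
          by_cases hz : z ∈ Om
          · simp only [pi, if_pos hz]
          · have : K y z = 0 := by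
              by_contra h
              exact hz (hc y z h hy)
            rw [this, zero_mul, zero_mul]
        rw [Finset.sum_congr rfl fun z _ => h2 z, ← Finset.sum_mul, h1, one_mul]
        simp only [pi, if_pos hy]
      · have h2 : ∀ z, K y z * pi z = 0 := by
          intro z
          by_cases hz : z ∈ Om
          · rw [K_zero hs hc hy hz, zero_mul]
          · simp only [pi, if_neg hz, mul_zero]
        rw [Finset.sum_congr rfl fun z _ => h2 z]
        simp [pi, hy]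
    unfold A
    rw [h]
    ring
  have hstep : ∀ s, g (s + 1) = A K (g s) := by
    intro s
    funext y
    have e1 : ((((1 / 2 : ℝ) • (1 + K)) ^ (s + 1)) x y) =
        A K (fun z => (((1 / 2 : ℝ) • (1 + K)) ^ s) x z) y := by
      rw [pow_succ, Matrix.mul_apply]
      unfold A
      simp only [Matrix.smul_apply, Matrix.add_apply, smul_eq_mul, mul_add, Finset.sum_add_distrib]
      have ea : ∑ i, (((1 / 2 : ℝ) • (1 + K)) ^ s) x i * (1 / 2 * (1 : Matrix X X ℝ) i y) =
          1 / 2 * (((1 / 2 : ℝ) • (1 + K)) ^ s) x y := by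
        rw [Finset.sum_eq_single y]
        · rw [Matrix.one_apply_eq]; ring
        · intro b _ hb
          rw [Matrix.one_apply_ne hb]; ring
        · intro h; exact absurd (Finset.mem_univ y) h
      rw [ea, Finset.mul_sum]
      congr 1
      exact Finset.sum_congr rfl fun z _ => by rw [hs z y]; ring
    have e2 : A K (g s) y = A K (fun z => (((1 / 2 : ℝ) • (1 + K)) ^ s) x z) y - A K pi y := by
      unfold A
      have : ∑ z, K y z * g s z = ∑ z, K y z * (((1 / 2 : ℝ) • (1 + K)) ^ s) x z -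
          ∑ z, K y z * pi z := by
        rw [← Finset.sum_sub_distrib]
        exact Finset.sum_congr rfl fun z _ => by simp only [g]; ring
      rw [this]
      simp only [g]
      ring
    rw [e2, hApi]
    change ((((1 / 2 : ℝ) • (1 + K)) ^ (s + 1)) x y) - pi y = _
    rw [e1]
  have hg0 : Good Om (g 0) := by
    constructor
    · intro y hy
      have : x ≠ y := fun h => hy (h ▸ hx)
      simp only [g, pi, pow_zero, if_neg hy, Matrix.one_apply_ne this, sub_zero]
    · simp only [g, pow_zero, Finset.sum_sub_distrib]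
      have e1 : ∑ y, (1 : Matrix X X ℝ) x y = 1 := by
        rw [Finset.sum_eq_single x]
        · exact Matrix.one_apply_eq x
        · intro b _ hb; exact Matrix.one_apply_ne hb.symm
        · intro h; exact absurd (Finset.mem_univ x) h
      have e2 : ∑ y, pi y = 1 := by
        simp only [pi, Finset.sum_ite_mem, Finset.univ_inter, Finset.sum_const, nsmul_eq_mul]
        field_simp
      rw [e1, e2, sub_self]
  have hn0 : nn (g 0) ≤ 1 := by
    have e0 : ∀ y, g 0 y ^ 2 = (1 : Matrix X X ℝ) x y ^ 2 - 2 * ((1 : Matrix X X ℝ) x y * pi y) +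
        pi y ^ 2 := by
      intro y
      simp only [g, pow_zero]
      ring
    unfold nn
    rw [Finset.sum_congr rfl fun y _ => e0 y, Finset.sum_add_distrib, Finset.sum_sub_distrib,
      ← Finset.mul_sum]
    have e1 : ∑ y, (1 : Matrix X X ℝ) x y ^ 2 = 1 := by
      rw [Finset.sum_eq_single x]
      · rw [Matrix.one_apply_eq]; norm_num
      · intro b _ hb; rw [Matrix.one_apply_ne hb.symm]; norm_num
      · intro h; exact absurd (Finset.mem_univ x) h
    have e2 : ∑ y, (1 : Matrix X X ℝ) x y * pi y = 1 / (Om.card : ℝ) := by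
      rw [Finset.sum_eq_single x]
      · rw [Matrix.one_apply_eq]; simp [pi, hx]
      · intro b _ hb; rw [Matrix.one_apply_ne hb.symm]; ring
      · intro h; exact absurd (Finset.mem_univ x) h
    have e3 : ∑ y, pi y ^ 2 = 1 / (Om.card : ℝ) := by
      have : ∀ y, pi y ^ 2 = if y ∈ Om then (1 / (Om.card : ℝ)) ^ 2 else 0 := by
        intro y
        by_cases hy : y ∈ Om
        · simp [pi, hy]
        · simp [pi, hy]
      rw [Finset.sum_congr rfl fun y _ => this y, Finset.sum_ite_mem, Finset.univ_inter,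
        Finset.sum_const, nsmul_eq_mul]
      field_simp
    rw [e1, e2, e3]
    have : 0 < 1 / (Om.card : ℝ) := by positivity
    linarith
  have hmain : ∀ s, Good Om (g s) ∧ nn (g s) ≤ ((1 - lam) ^ s) ^ 2 := by
    intro s
    induction s with
    | zero => exact ⟨hg0, by simpa using hn0⟩
    | succ s ih =>
      rw [hstep]
      refine ⟨ih.1.A hs h1 hc, ?_⟩
      have h4 := contract h0 hs h1 hc hl1 hP ih.1
      calc nn (A K (g s)) ≤ (1 - lam) ^ 2 * nn (g s) := h4
        _ ≤ (1 - lam) ^ 2 * ((1 - lam) ^ s) ^ 2 :=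
            mul_le_mul_of_nonneg_left ih.2 (sq_nonneg _)
        _ = ((1 - lam) ^ (s + 1)) ^ 2 := by ring
  obtain ⟨hG, hN⟩ := hmain t
  have hL1 : (∑ y, |g t y|) ≤ Real.sqrt (Om.card : ℝ) * (1 - lam) ^ t := by
    have e1 : ∑ y, |g t y| = ∑ y ∈ Om, |g t y| := by
      symm
      exact Finset.sum_subset (Finset.subset_univ _) fun y _ hy => by rw [hG.supp y hy, abs_zero]
    have e2 : (∑ y ∈ Om, |g t y|) ^ 2 ≤ Om.card * ∑ y ∈ Om, |g t y| ^ 2 :=
      sq_sum_le_card_mul_sum_sq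
    have e3 : ∑ y ∈ Om, |g t y| ^ 2 ≤ nn (g t) := by
      unfold nn
      calc ∑ y ∈ Om, |g t y| ^ 2 = ∑ y ∈ Om, g t y ^ 2 :=
            Finset.sum_congr rfl fun y _ => sq_abs _
        _ ≤ ∑ y, g t y ^ 2 :=
            Finset.sum_le_sum_of_subset_of_nonneg (Finset.subset_univ _) fun y _ _ => sq_nonneg _
    rw [e1]
    refine abs_le_of_sq_le_sq' ?_ (mul_nonneg (Real.sqrt_nonneg _)
      (pow_nonneg (sub_nonneg.2 hl1) t)) |>.2
    rw [mul_pow, Real.sq_sqrt hcard.le]
    calc (∑ y ∈ Om, |g t y|) ^ 2 ≤ Om.card * ∑ y ∈ Om, |g t y| ^ 2 := e2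
      _ ≤ Om.card * ((1 - lam) ^ t) ^ 2 :=
          mul_le_mul_of_nonneg_left (e3.trans hN) hcard.le
  have : (∑ y, |((((1 / 2 : ℝ) • (1 + K)) ^ t) x y) -
    (if y ∈ Om then 1 / (Om.card : ℝ) else 0)|) ≤ Real.sqrt (Om.card : ℝ) * (1 - lam) ^ t := hL1
  linarith

/-- mixing time: if `t ≥ log(sqrt|Om| / eps) / lam` then `TV ≤ eps`. -/
theorem mix_time {X : Type} [Fintype X] [DecidableEq X] (K : Matrix X X ℝ) (Om : Finset X)
    (lam eps : ℝ) (t : ℕ) (h0 : ∀ x y, 0 ≤ K x y) (hs : ∀ x y, K x y = K y x)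
    (h1 : ∀ x, ∑ y, K x y = 1) (hc : ∀ x y, K x y ≠ 0 → x ∈ Om → y ∈ Om) (hl0 : 0 < lam)
    (hl1 : lam ≤ 1) (heps : 0 < eps)
    (hP : ∀ f : X → ℝ, lam * ∑ x ∈ Om, (f x - (∑ z ∈ Om, f z) / (Om.card : ℝ)) ^ 2 ≤
      (1 / 4) * ∑ x ∈ Om, ∑ y ∈ Om, K x y * (f x - f y) ^ 2)
    (ht : Real.log (Real.sqrt (Om.card : ℝ) / eps) / lam ≤ t) :
    ∀ x ∈ Om, (1 / 2) * ∑ y, |((((1 / 2 : ℝ) • (1 + K)) ^ t) x y) -
      (if y ∈ Om then 1 / (Om.card : ℝ) else 0)| ≤ eps := by
  intro x hx
  refine (mix_tv K Om lam t h0 hs h1 hc hl1 hP x hx).trans ?_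
  have hcard : 0 < (Om.card : ℝ) := by
    exact_mod_cast Finset.card_pos.2 ⟨x, hx⟩
  have hsq : 0 < Real.sqrt (Om.card : ℝ) := Real.sqrt_pos.2 hcard
  have h2 : (1 - lam) ^ t ≤ Real.exp (-(lam * t)) := by
    have h3 : 1 - lam ≤ Real.exp (-lam) := by
      have := Real.add_one_le_exp (-lam)
      linarith
    calc (1 - lam) ^ t ≤ (Real.exp (-lam)) ^ t := pow_le_pow_left₀ (sub_nonneg.2 hl1) h3 t
      _ = Real.exp (-(lam * t)) := by
          rw [← Real.exp_nat_mul]
          exact congrArg Real.exp (by ring)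
  have h4 : Real.sqrt (Om.card : ℝ) * Real.exp (-(lam * t)) ≤ eps := by
    rw [div_le_iff₀ hl0] at ht
    have h5 : Real.log (Real.sqrt (Om.card : ℝ) / eps) ≤ lam * t := by linarith
    rw [Real.log_le_iff_le_exp (div_pos hsq heps), div_le_iff₀ heps] at h5
    rw [Real.exp_neg]
    rw [← div_eq_mul_inv, div_le_iff₀ (Real.exp_pos _)]
    linarith
  have h6 : Real.sqrt (Om.card : ℝ) * (1 - lam) ^ t ≤ eps :=
    (mul_le_mul_of_nonneg_left h2 hsq.le).trans h4
  linarith

end Vale.Agent.P328.MixEps
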