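import Mathlib

/-!
P328: symmetric chains in products of chains (bracketing), in the form needed for the Hardy
inequality.
-/

namespace Vale.Agent.P328.Scd

open Finset

/-- demand of unmatched ones -/
def dem (x y : ℕ → ℕ) : ℕ → ℕ
  | 0 => 0
  | i + 1 => x i + (dem x y i - y i)

theorem dem_bal (x y : ℕ → ℕ) (n : ℕ) :
    ∑ k ∈ range n, y k + dem x y n = ∑ k ∈ range n, x k + ∑ k ∈ range n, (y k - dem x y k) := by
  induction n with
  | zero => simp [dem]
  | succ n ih =>
    rw [sum_range_succ, sum_range_succ, sum_range_succ]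
    have h : dem x y (n + 1) = x n + (dem x y n - y n) := rfl
    rw [h]
    omega

/-- `i` is the last index with a free zero -/
def Lst (x y : ℕ → ℕ) (n i : ℕ) : Prop :=
  i < n ∧ dem x y i < y i ∧ ∀ k, i < k → k < n → y k ≤ dem x y k

theorem exists_Lst (x y : ℕ → ℕ) (n : ℕ) (h : 1 ≤ ∑ k ∈ range n, (y k - dem x y k)) :
    ∃ i, Lst x y n i := by
  classical
  set s := (range n).filter (fun k => dem x y k < y k) with hs
  have hne : s.Nonempty := by
    by_contra hne
    rw [not_nonempty_iff_eq_empty] at hne
    have : ∑ k ∈ range n, (y k - dem x y k) = 0 := by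
      refine sum_eq_zero (fun k hk => ?_)
      by_contra h0
      have : k ∈ s := by
        rw [hs, mem_filter]
        exact ⟨hk, by omega⟩
      rw [hne] at this
      exact absurd this (notMem_empty k)
    omega
  have hm0 := s.max'_mem hne
  have hm : s.max' hne < n ∧ dem x y (s.max' hne) < y (s.max' hne) := by
    have h1 : ∀ k ∈ s, k < n ∧ dem x y k < y k := by
      intro k hk
      rw [hs, mem_filter, mem_range] at hk
      exact hk
    exact h1 _ hm0
  refine ⟨s.max' hne, hm.1, hm.2, fun k hk hkn => ?_⟩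
  by_contra h0
  have hks : k ∈ s := by
    rw [hs, mem_filter, mem_range]
    exact ⟨hkn, by omega⟩
  have := s.le_max' k hks
  omega

theorem flip_le {x y x' y' : ℕ → ℕ} {i : ℕ}
    (hx : ∀ k, x' k = x k + if k = i then 1 else 0)
    (hy : ∀ k, y' k = y k - if k = i then 1 else 0) :
    ∀ k, k ≤ i → dem x' y' k = dem x y k := by
  intro k
  induction k with
  | zero => intro _; rfl
  | succ k ih =>
    intro hk
    have h1 := ih (by omega)
    show x' k + (dem x' y' k - y' k) = x k + (dem x y k - y k)
    rw [h1, hx, hy, if_neg (by omega)]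
    rfl

theorem flip_gt {x y x' y' : ℕ → ℕ} {n i : ℕ} (hL : Lst x y n i)
    (hx : ∀ k, x' k = x k + if k = i then 1 else 0)
    (hy : ∀ k, y' k = y k - if k = i then 1 else 0) :
    ∀ k, i < k → k ≤ n → dem x' y' k = dem x y k + 1 := by
  intro k
  induction k with
  | zero => intro h; omega
  | succ k ih =>
    intro hk hkn
    show x' k + (dem x' y' k - y' k) = x k + (dem x y k - y k) + 1
    rcases Nat.lt_or_ge i k with h | h
    · have h1 := ih h (by omega)
      have h2 := hL.2.2 k h (by omega)
      rw [h1, hx, hy, if_neg (by omega)]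
      omega
    · have hki : k = i := by omega
      subst hki
      have h1 := flip_le hx hy k le_rfl
      have h2 := hL.2.1
      rw [h1, hx, hy, if_pos rfl]
      omega

/-- the number of free zeros drops by one -/
theorem flip_free {x y x' y' : ℕ → ℕ} {n i : ℕ} (hL : Lst x y n i)
    (hx : ∀ k, x' k = x k + if k = i then 1 else 0)
    (hy : ∀ k, y' k = y k - if k = i then 1 else 0) :
    ∑ k ∈ range n, (y' k - dem x' y' k) + 1 = ∑ k ∈ range n, (y k - dem x y k) := by
  have hi : i ∈ range n := mem_range.2 hL.1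
  rw [← add_sum_erase _ _ hi, ← add_sum_erase _ _ hi]
  have h1 : ∑ k ∈ (range n).erase i, (y' k - dem x' y' k) =
      ∑ k ∈ (range n).erase i, (y k - dem x y k) := by
    refine sum_congr rfl (fun k hk => ?_)
    rw [mem_erase, mem_range] at hk
    rw [hy, if_neg hk.1]
    rcases Nat.lt_or_ge i k with h | h
    · have h2 := hL.2.2 k h hk.2
      rw [flip_gt hL hx hy k h hk.2.le]
      omega
    · rw [flip_le hx hy k h]
      rfl
  rw [h1, flip_le hx hy i le_rfl, hy, if_pos rfl]
  have := hL.2.1
  omega

theorem flip_inj {x y x' y' u v : ℕ → ℕ} {n i i' : ℕ} (hL : Lst x y n i)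
    (hL' : Lst x' y' n i')
    (hx : ∀ k, u k = x k + if k = i then 1 else 0)
    (hy : ∀ k, v k = y k - if k = i then 1 else 0)
    (hx' : ∀ k, u k = x' k + if k = i' then 1 else 0)
    (hy' : ∀ k, v k = y' k - if k = i' then 1 else 0) : i = i' := by
  have key : ∀ {x y x' y' : ℕ → ℕ} {i i' : ℕ}, Lst x y n i → Lst x' y' n i' →
      (∀ k, u k = x k + if k = i then 1 else 0) → (∀ k, v k = y k - if k = i then 1 else 0) →
      (∀ k, u k = x' k + if k = i' then 1 else 0) →
      (∀ k, v k = y' k - if k = i' then 1 else 0) → ¬ i < i' := by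
    intro x y x' y' i i' hL hL' hx hy hx' hy' hlt
    have h1 := flip_gt hL hx hy i' hlt hL'.1.le
    have h2 := flip_le hx' hy' i' le_rfl
    have h3 := hL.2.2 i' hlt hL'.1
    have h4 := hL'.2.1
    have h5 := hy i'
    have h6 := hy' i'
    rw [if_neg (by omega)] at h5
    rw [if_pos rfl] at h6
    omega
  have h1 := key hL hL' hx hy hx' hy'
  have h2 := key hL' hL hx' hy' hx hy
  omega

end Vale.Agent.P328.Scd
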